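import Vale.Agent.P069.NoAuc

/-!
# A reflexive AMUC Banach space with no equivalent AUC norm

The space is the `ℓ₂`-sum of the spaces `X n` of the trees of height `n`, see the files
`Vale/Agent/P069/*.lean`.  The definitions below unfold the conditions `δ̄_N(t) > 0` and
`m_N(t) > 0` of the problem: `inf_x sup_F inf_y g > 0` says exactly that there is `c > 0` such that
for every `x` there is `F` with `g ≥ c` for all `y`.
-/

namespace Vale.Agent.Results.P069.ReflexiveAMUCNotAUC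

/-- `F` belongs to `cof(E)`: a closed subspace of finite codimension. -/
def IsCof {E : Type} [NormedAddCommGroup E] [NormedSpace ℝ E] (F : Submodule ℝ E) : Prop :=
  IsClosed (F : Set E) ∧ FiniteDimensional ℝ (E ⧸ F)

/-- `N` is a norm on `E` equivalent to the given norm of `E`. -/
def IsEquivNorm {E : Type} [NormedAddCommGroup E] [NormedSpace ℝ E] (N : E → ℝ) : Prop :=
  (∀ x y, N (x + y) ≤ N x + N y) ∧ (∀ (c : ℝ) (x : E), N (c • x) = |c| * N x) ∧
    ∃ a b : ℝ, 0 < a ∧ 0 < b ∧ ∀ x, a * ‖x‖ ≤ N x ∧ N x ≤ b * ‖x‖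

/-- `N` is asymptotically uniformly convex: the modulus `δ̄_N(t)` is positive for every `t > 0`. -/
def IsAUC {E : Type} [NormedAddCommGroup E] [NormedSpace ℝ E] (N : E → ℝ) : Prop :=
  ∀ t : ℝ, 0 < t → ∃ c : ℝ, 0 < c ∧ ∀ x : E, N x = 1 →
    ∃ F : Submodule ℝ E, IsCof F ∧ ∀ y ∈ F, N y = 1 → c ≤ N (x + t • y) - 1

/-- `N` is asymptotically midpoint uniformly convex: the modulus `m_N(t)` is positive for every
`t > 0`. -/
def IsAMUC {E : Type} [NormedAddCommGroup E] [NormedSpace ℝ E] (N : E → ℝ) : Prop :=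
  ∀ t : ℝ, 0 < t → ∃ c : ℝ, 0 < c ∧ ∀ x : E, N x = 1 →
    ∃ F : Submodule ℝ E, IsCof F ∧ ∀ y ∈ F, N y = 1 → c ≤ max (N (x + t • y)) (N (x - t • y)) - 1

/-- There is an infinite dimensional reflexive real Banach space whose norm is asymptotically
midpoint uniformly convex, and which has no equivalent asymptotically uniformly convex norm. -/
theorem result : ∃ (E : Type) (_ : NormedAddCommGroup E) (_ : NormedSpace ℝ E),
    CompleteSpace E ∧
    (∀ Φ : StrongDual ℝ (StrongDual ℝ E), ∃ x : E, ∀ ψ : StrongDual ℝ E, Φ ψ = ψ x) ∧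
    ¬ FiniteDimensional ℝ E ∧
    IsAMUC (fun x : E => ‖x‖) ∧
    ∀ N : E → ℝ, IsEquivNorm N → ¬ IsAUC N := by
  refine ⟨Vale.Agent.P069.Y, inferInstance, inferInstance, inferInstance,
    Vale.Agent.P069.refl_Y, Vale.Agent.P069.not_finiteDimensional_Y, ?_, ?_⟩
  · intro t ht
    obtain ⟨c, hc, h⟩ := Vale.Agent.P069.amuc_Y ht
    refine ⟨c, hc, fun x hx => ?_⟩
    obtain ⟨F, h1, h2, h3⟩ := h x hx
    exact ⟨F, ⟨h1, h2⟩, h3⟩
  · rintro N ⟨hadd, hsmul, a, b, ha, hb, hab⟩ hauc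
    refine Vale.Agent.P069.no_auc N hadd hsmul ha hb hab fun t ht => ?_
    obtain ⟨c, hc, h⟩ := hauc t ht
    refine ⟨c, hc, fun x hx => ?_⟩
    obtain ⟨F, ⟨h1, h2⟩, h3⟩ := h x hx
    exact ⟨F, h1, h2, h3⟩

end Vale.Agent.Results.P069.ReflexiveAMUCNotAUC
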